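import Mathlib

/-!
# Integral points on Markov type cubic surfaces are Zariski dense

The surface is `E α β η = 0` where `E` is a cubic whose only cubic monomial is `- α β η` and whose
coefficients of `α ^ 2` and `η ^ 2` are units of a subring `O` of the complex numbers.
It is assumed to contain the line `α = 0, η = e1 β`.
-/

namespace Vale.Agent.P002

open Polynomial

/-- Coefficients of the cubic. -/
structure Cubic where
  (u1 u2 u3 m1 m2 m3 l1 l2 l3 l0 w1 w2 e1 : ℂ)

namespace Cubic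

variable (c : Cubic)

/-- The cubic polynomial function. -/
def E (α β η : ℂ) : ℂ :=
  c.u1 * α ^ 2 + c.u2 * η ^ 2 + c.u3 * β ^ 2 - α * β * η + c.m1 * α * β + c.m2 * α * η
    + c.m3 * β * η + c.l1 * α + c.l2 * β + c.l3 * η + c.l0

/-- The cubic evaluated at polynomials in `β`. -/
noncomputable def EP (A H : ℂ[X]) : ℂ[X] :=
  C c.u1 * A ^ 2 + C c.u2 * H ^ 2 + C c.u3 * X ^ 2 - A * X * H + C c.m1 * A * X + C c.m2 * A * H
    + C c.m3 * X * H + C c.l1 * A + C c.l2 * X + C c.l3 * H + C c.l0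

lemma eval_EP (A H : ℂ[X]) (β : ℂ) : (c.EP A H).eval β = c.E (A.eval β) β (H.eval β) := by
  simp [EP, E]

/-- The hypotheses on the coefficients. -/
structure Good (O : Subring ℂ) : Prop where
  hu1 : c.u1 * c.w1 = 1
  hu2 : c.u2 * c.w2 = 1
  he1 : c.e1 ≠ 0
  line : ∀ β, c.E 0 β (c.e1 * β) = 0
  mem : c.w1 ∈ O ∧ c.w2 ∈ O ∧ c.m1 ∈ O ∧ c.m2 ∈ O ∧ c.m3 ∈ O ∧ c.l1 ∈ O ∧ c.l3 ∈ O ∧ c.e1 ∈ O

/-- Vieta step in the first variable. -/
noncomputable def stepA (A H : ℂ[X]) : ℂ[X] :=
  -A + C c.w1 * ((X - C c.m2) * H - C c.m1 * X - C c.l1)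

/-- Vieta step in the last variable. -/
noncomputable def stepH (A H : ℂ[X]) : ℂ[X] :=
  -H + C c.w2 * ((X - C c.m2) * A - C c.m3 * X - C c.l3)

/-- The orbit of the line under the two Vieta involutions. -/
noncomputable def seq : ℕ → ℂ[X] × ℂ[X]
  | 0 => (0, C c.e1 * X)
  | n + 1 => (c.stepA (seq n).1 (seq n).2, c.stepH (c.stepA (seq n).1 (seq n).2) (seq n).2)

lemma EP_stepA (h : c.u1 * c.w1 = 1) (A H : ℂ[X]) : c.EP (c.stepA A H) H = c.EP A H := by
  have h' : (C c.u1 : ℂ[X]) * C c.w1 = 1 := by rw [← C_mul, h, C_1]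
  simp only [EP, stepA]
  linear_combination ((-A + C c.w1 * ((X - C c.m2) * H - C c.m1 * X - C c.l1)) - A) *
    ((X - C c.m2) * H - C c.m1 * X - C c.l1) * h'

lemma EP_stepH (h : c.u2 * c.w2 = 1) (A H : ℂ[X]) : c.EP A (c.stepH A H) = c.EP A H := by
  have h' : (C c.u2 : ℂ[X]) * C c.w2 = 1 := by rw [← C_mul, h, C_1]
  simp only [EP, stepH]
  linear_combination ((-H + C c.w2 * ((X - C c.m2) * A - C c.m3 * X - C c.l3)) - H) *
    ((X - C c.m2) * A - C c.m3 * X - C c.l3) * h'

lemma natDegree_step (A H : ℂ[X]) (w m m' l : ℂ) (hw : w ≠ 0) (hH : 1 ≤ H.natDegree)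
    (hA : A.natDegree ≤ H.natDegree) :
    (-A + C w * ((X - C m) * H - C m' * X - C l)).natDegree = H.natDegree + 1 := by
  have hH0 : H ≠ 0 := by
    rintro rfl
    simp at hH
  have h1 : (C w * ((X - C m) * H)).natDegree = H.natDegree + 1 := by
    rw [natDegree_C_mul hw, natDegree_mul (X_sub_C_ne_zero m) hH0, natDegree_X_sub_C, add_comm]
  have h2 : (-A - C w * (C m' * X + C l)).natDegree ≤ H.natDegree := by
    refine (natDegree_sub_le _ _).trans (max_le ?_ ?_)
    · rw [natDegree_neg]; exact hA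
    · refine (natDegree_C_mul_le _ _).trans ?_
      refine (natDegree_add_le _ _).trans (max_le ?_ ?_)
      · exact ((natDegree_C_mul_le _ _).trans natDegree_X_le).trans hH
      · rw [natDegree_C]; exact Nat.zero_le _
  have h3 : -A + C w * ((X - C m) * H - C m' * X - C l)
      = C w * ((X - C m) * H) + (-A - C w * (C m' * X + C l)) := by ring
  rw [h3, natDegree_add_eq_left_of_natDegree_lt (by omega), h1]

variable {c}

lemma w1_ne (h : c.u1 * c.w1 = 1) : c.w1 ≠ 0 := by
  rintro h0; rw [h0, mul_zero] at h; exact zero_ne_one h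

lemma w2_ne (h : c.u2 * c.w2 = 1) : c.w2 ≠ 0 := by
  rintro h0; rw [h0, mul_zero] at h; exact zero_ne_one h

lemma natDegree_seq {O : Subring ℂ} (g : c.Good O) (n : ℕ) :
    (c.seq n).1.natDegree = 2 * n ∧ (c.seq n).2.natDegree = 2 * n + 1 := by
  induction n with
  | zero =>
    refine ⟨by simp [seq], ?_⟩
    simp only [seq]
    rw [natDegree_C_mul_X _ g.he1]
  | succ n ih =>
    have h1 : (c.stepA (c.seq n).1 (c.seq n).2).natDegree = 2 * (n + 1) := by
      rw [stepA, natDegree_step _ _ _ _ _ _ (w1_ne g.hu1) (by omega) (by omega)]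
      omega
    refine ⟨h1, ?_⟩
    simp only [seq]
    rw [stepH, natDegree_step _ _ _ _ _ _ (w2_ne g.hu2) (by omega) (by omega)]
    omega

lemma EP_seq {O : Subring ℂ} (g : c.Good O) (n : ℕ) :
    c.EP (c.seq n).1 (c.seq n).2 = 0 ∧ c.EP (c.seq (n + 1)).1 (c.seq n).2 = 0 := by
  have key : ∀ n, c.EP (c.seq n).1 (c.seq n).2 = 0 := by
    intro n
    induction n with
    | zero =>
      apply Polynomial.funext
      intro β
      rw [eval_EP]
      simpa [seq] using g.line β
    | succ n ih =>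
      simp only [seq]
      rw [EP_stepH c g.hu2, EP_stepA c g.hu1, ih]
  refine ⟨key n, ?_⟩
  simp only [seq]
  rw [EP_stepA c g.hu1, key n]

lemma eval_seq_mem {O : Subring ℂ} (g : c.Good O) (n : ℕ) {β : ℂ} (hβ : β ∈ O) :
    (c.seq n).1.eval β ∈ O ∧ (c.seq n).2.eval β ∈ O := by
  obtain ⟨hw1, hw2, hm1, hm2, hm3, hl1, hl3, he1⟩ := g.mem
  induction n with
  | zero =>
    refine ⟨by simp [seq, O.zero_mem], ?_⟩
    simpa [seq] using O.mul_mem he1 hβ
  | succ n ih =>
    have h1 : (c.stepA (c.seq n).1 (c.seq n).2).eval β ∈ O := by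
      simp only [stepA, eval_add, eval_neg, eval_mul, eval_C, eval_sub, eval_X]
      exact O.add_mem (O.neg_mem ih.1) (O.mul_mem hw1 (O.sub_mem (O.sub_mem
        (O.mul_mem (O.sub_mem hβ hm2) ih.2) (O.mul_mem hm1 hβ)) hl1))
    refine ⟨h1, ?_⟩
    simp only [seq]
    rw [stepH]
    simp only [eval_add, eval_neg, eval_mul, eval_C, eval_sub, eval_X]
    exact O.add_mem (O.neg_mem ih.2) (O.mul_mem hw2 (O.sub_mem (O.sub_mem
        (O.mul_mem (O.sub_mem hβ hm2) h1) (O.mul_mem hm3 hβ)) hl3))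

end Cubic

/-- Evaluation of a polynomial in three variables `β, α, η` (innermost to outermost) at numbers. -/
noncomputable def phi (β α η : ℂ) : ℂ[X][X][X] →+* ℂ :=
  eval₂RingHom (eval₂RingHom (evalRingHom β) α) η

/-- Evaluation of the two outer variables at polynomials in `β`. -/
noncomputable def psi (A H : ℂ[X]) : ℂ[X][X][X] →+* ℂ[X] :=
  eval₂RingHom (eval₂RingHom (RingHom.id ℂ[X]) A) H

lemma eval_psi (A H : ℂ[X]) (β : ℂ) (F : ℂ[X][X][X]) :
    (psi A H F).eval β = phi β (A.eval β) (H.eval β) F := by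
  have : (evalRingHom β).comp (psi A H) = phi β (A.eval β) (H.eval β) := by
    ext <;> simp [psi, phi]
  exact congrArg (fun f => f F) this

namespace Cubic

variable (c : Cubic)

/-- Coefficient of `η` in the monic version of the cubic. -/
noncomputable def bb : ℂ[X][X] :=
  C (C c.w2) * (C (C c.m2) * X + C (C c.m3 * X) + C (C c.l3) - X * C X)

/-- Constant coefficient in `η` of the monic version of the cubic. -/
noncomputable def cc : ℂ[X][X] :=
  C (C c.w2) * (C (C c.u1) * X ^ 2 + C (C c.u3 * X ^ 2) + C (C c.m1 * X) * X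
      + C (C c.l1) * X + C (C c.l2 * X) + C (C c.l0))

/-- The monic version of the cubic as a polynomial in `η` over polynomials in `α` and `β`. -/
noncomputable def E3 : ℂ[X][X][X] := X ^ 2 + C c.bb * X + C c.cc

lemma phi_E3 (h : c.u2 * c.w2 = 1) (β α η : ℂ) : phi β α η c.E3 = c.w2 * c.E α β η := by
  simp only [phi, E3, bb, cc, E, coe_eval₂RingHom, eval₂_add, eval₂_mul, eval₂_pow, eval₂_X, eval₂_C,
    eval₂_sub, coe_evalRingHom, eval_mul, eval_C, eval_X, eval_pow]
  linear_combination (-(η ^ 2)) * h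

lemma psi_E3 (h : c.u2 * c.w2 = 1) (A H : ℂ[X]) : psi A H c.E3 = C c.w2 * c.EP A H := by
  have h' : (C c.u2 : ℂ[X]) * C c.w2 = 1 := by rw [← C_mul, h, C_1]
  simp only [psi, E3, bb, cc, EP, coe_eval₂RingHom, eval₂_add, eval₂_mul, eval₂_pow, eval₂_X, eval₂_C,
    eval₂_sub, RingHom.id_apply]
  linear_combination (-(H ^ 2)) * h'

lemma monic_E3 : c.E3.Monic := by
  rw [E3, add_assoc]
  apply monic_X_pow_add
  refine lt_of_le_of_lt (degree_add_le _ _) (max_lt ?_ ?_)
  · exact lt_of_le_of_lt (degree_C_mul_X_le _) (by norm_num)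
  · exact lt_of_le_of_lt degree_C_le (by norm_num)

/-- **Density of integral points.** A polynomial vanishing at all points of the surface with
coordinates in `O` vanishes on the whole complex surface. -/
theorem dense {O : Subring ℂ} (g : c.Good O) (F : ℂ[X][X][X])
    (hF : ∀ α ∈ O, ∀ β ∈ O, ∀ η ∈ O, c.E α β η = 0 → phi β α η F = 0)
    (α β η : ℂ) (hE : c.E α β η = 0) : phi β α η F = 0 := by
  -- vanishing along polynomial curves
  have van : ∀ A H : ℂ[X], c.EP A H = 0 → (∀ β ∈ O, A.eval β ∈ O ∧ H.eval β ∈ O) →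
      psi A H F = 0 := by
    intro A H h0 hmem
    apply eq_zero_of_infinite_isRoot
    refine Set.infinite_of_injective_forall_mem (f := fun n : ℕ => (n : ℂ)) Nat.cast_injective ?_
    intro n
    have hn : (n : ℂ) ∈ O := natCast_mem O n
    change (psi A H F).eval (n : ℂ) = 0
    rw [eval_psi]
    refine hF _ (hmem _ hn).1 _ hn _ (hmem _ hn).2 ?_
    rw [← eval_EP, h0, eval_zero]
  -- division with remainder
  set r := F %ₘ c.E3 with hr
  have hdeg : r.degree ≤ 1 := by
    have h1 : r.degree < c.E3.degree := degree_modByMonic_lt _ c.monic_E3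
    have h2 : c.E3.degree ≤ 2 := by
      rw [E3]
      refine (degree_add_le _ _).trans (max_le ((degree_add_le _ _).trans (max_le ?_ ?_)) ?_)
      · exact degree_X_pow_le 2
      · exact (degree_C_mul_X_le _).trans (by norm_num)
      · exact degree_C_le.trans (by norm_num)
    have h3 : r.degree < 2 := lt_of_lt_of_le h1 h2
    exact Order.le_of_lt_succ h3
  have hr2 : r = C (r.coeff 1) * X + C (r.coeff 0) := eq_X_add_C_of_degree_le_one hdeg
  have hdiv : F = r + c.E3 * (F /ₘ c.E3) := (modByMonic_add_div F c.E3).symm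
  have hpsi : ∀ A H : ℂ[X], c.EP A H = 0 →
      psi A H F = (r.coeff 1).eval A * H + (r.coeff 0).eval A := by
    intro A H h0
    rw [hdiv, map_add, map_mul, psi_E3 c g.hu2, h0, mul_zero, zero_mul, add_zero]
    conv_lhs => rw [hr2]
    simp [psi, eval₂_eq_eval_map]
  have e1 : ∀ n, (r.coeff 1).eval (c.seq (n + 1)).1 * (c.seq n).2
      + (r.coeff 0).eval (c.seq (n + 1)).1 = 0 := by
    intro n
    rw [← hpsi _ _ (EP_seq g n).2]
    exact van _ _ (EP_seq g n).2 fun β hβ => ⟨(eval_seq_mem g (n + 1) hβ).1, (eval_seq_mem g n hβ).2⟩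
  have e2 : ∀ n, (r.coeff 1).eval (c.seq (n + 1)).1 * (c.seq (n + 1)).2
      + (r.coeff 0).eval (c.seq (n + 1)).1 = 0 := by
    intro n
    rw [← hpsi _ _ (EP_seq g (n + 1)).1]
    exact van _ _ (EP_seq g (n + 1)).1 fun β hβ => eval_seq_mem g (n + 1) hβ
  have inj : Function.Injective fun n : ℕ => (c.seq (n + 1)).1 := by
    intro n m hnm
    have h1 := (natDegree_seq g (n + 1)).1
    have h2 := (natDegree_seq g (m + 1)).1
    simp only at hnm
    rw [hnm] at h1
    omega
  have r1 : r.coeff 1 = 0 := by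
    apply eq_zero_of_infinite_isRoot
    refine Set.infinite_of_injective_forall_mem inj ?_
    intro n
    have h3 : (r.coeff 1).eval (c.seq (n + 1)).1 * ((c.seq (n + 1)).2 - (c.seq n).2) = 0 := by
      linear_combination e2 n - e1 n
    rcases mul_eq_zero.mp h3 with h4 | h4
    · exact h4
    · exfalso
      have h5 := (natDegree_seq g (n + 1)).2
      have h6 := (natDegree_seq g n).2
      rw [sub_eq_zero.mp h4] at h5
      omega
  have r0 : r.coeff 0 = 0 := by
    apply eq_zero_of_infinite_isRoot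
    refine Set.infinite_of_injective_forall_mem inj ?_
    intro n
    have := e1 n
    rw [r1] at this
    simpa using this
  rw [hdiv, hr2, r1, r0, map_add, map_mul, phi_E3 c g.hu2, hE]
  simp

end Cubic

end Vale.Agent.P002
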