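import Vale.Agent.P002.Poly5
import Vale.Agent.P002.Surface

/-!
# Density of integral points on one triangular chart
-/

namespace Vale.Agent.P002

open Matrix

/-- The trace of the product on the chart. -/
def tr1 (a b : Fin 3 → ℂ) (v : Fin 6 → ℂ) : ℂ :=
  a 0 * b 0 + a 1 * b 1 + a 2 * b 2 + inv5 v 0 + inv5 v 1 + inv5 v 2

/-- The trace of the inverse of the product on the chart. -/
def tr2 (a b : Fin 3 → ℂ) (v : Fin 6 → ℂ) : ℂ :=
  a 1 * a 2 * b 1 * b 2 + a 0 * a 2 * b 0 * b 2 + a 0 * a 1 * b 0 * b 1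
    + a 2 * b 2 * inv5 v 0 + a 0 * b 0 * inv5 v 1 + a 1 * b 1 * inv5 v 2 + inv5 v 0 * inv5 v 1
    - a 1 * inv5 v 4 - b 1 * inv5 v 3

lemma trace_UL (a b : Fin 3 → ℂ) (v : Fin 6 → ℂ) :
    (Umat a v * Lmat b v).trace = tr1 a b v := by
  simp [Umat, Lmat, trace_fin_three, inv5, tr1]
  ring

lemma trace_UL_inv (a b : Fin 3 → ℂ) (v : Fin 6 → ℂ) :
    ((Lmat b v).adjugate * (Umat a v).adjugate).trace = tr2 a b v := by
  rw [adj_Umat, adj_Lmat]
  simp [trace_fin_three, inv5, tr2]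
  ring

lemma trace_rho_prod (a b : Fin 3 → ℂ) (ha : a 0 * a 1 * a 2 = 1) (hb : b 0 * b 1 * b 2 = 1)
    (v : Fin 6 → ℂ) :
    ((rho a b ha hb v (FreeGroup.of 0 * FreeGroup.of 1) : SpecialLinearGroup (Fin 3) ℂ) :
      Matrix (Fin 3) (Fin 3) ℂ).trace = tr1 a b v := by
  rw [map_mul, rho_of_zero, rho_of_one, ← trace_UL]
  rfl

lemma trace_rho_prod_inv (a b : Fin 3 → ℂ) (ha : a 0 * a 1 * a 2 = 1) (hb : b 0 * b 1 * b 2 = 1)
    (v : Fin 6 → ℂ) :
    ((rho a b ha hb v (FreeGroup.of 0 * FreeGroup.of 1)⁻¹ : SpecialLinearGroup (Fin 3) ℂ) :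
      Matrix (Fin 3) (Fin 3) ℂ).trace = tr2 a b v := by
  rw [_root_.mul_inv_rev, map_mul, map_inv, map_inv, rho_of_zero, rho_of_one, ← trace_UL_inv]
  rfl

lemma inv5_rel (v : Fin 6 → ℂ) : inv5 v 3 * inv5 v 4 = inv5 v 0 * inv5 v 1 * inv5 v 2 := by
  simp [inv5]
  ring

/-- Every solution of the monomial relation is the invariant vector of a chart point. -/
lemma exists_lift (α β γ δ ε : ℂ) (h : δ * ε = α * β * γ) :
    ∃ v : Fin 6 → ℂ, inv5 v = ![α, β, γ, δ, ε] := by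
  by_cases hε : ε = 0
  · by_cases hδ : δ = 0
    · subst hε hδ
      have h' : α * β * γ = 0 := by rw [← h]; ring
      rcases mul_eq_zero.mp h' with h1 | h1
      · rcases mul_eq_zero.mp h1 with h2 | h2
        · subst h2
          exact ⟨![0, γ, β, 0, 1, 1], by simp [inv5]⟩
        · subst h2
          exact ⟨![α, γ, 0, 1, 1, 0], by simp [inv5]⟩
      · subst h1
        exact ⟨![α, 0, β, 1, 0, 1], by simp [inv5]⟩
    · subst hε
      refine ⟨![1, γ / δ, 1, α, δ, β], ?_⟩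
      have h' : α * β * γ = 0 := by rw [← h]; ring
      have h3 : γ / δ * α * β = 0 := by
        rw [div_mul_eq_mul_div, div_mul_eq_mul_div]
        rw [show γ * α * β = α * β * γ by ring, h', zero_div]
      simp [inv5, h3, div_mul_cancel₀ _ hδ]
  · refine ⟨![α, ε, β, 1, γ / ε, 1], ?_⟩
    have h3 : α * β * (γ / ε) = δ := by
      rw [← mul_div_assoc, ← h, mul_div_assoc, div_self hε, mul_one]
    simp [inv5, h3, mul_div_cancel₀ _ hε]

/-- The Markov type cubic attached to a chart. -/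
def chartCubic (a b : Fin 3 → ℂ) (c1 c2 : ℂ) : Cubic where
  u1 := a 1 * a 2 * b 2
  u2 := b 1
  u3 := a 0 * a 1 * b 0
  m1 := 2 * b 1 * a 1 ^ 2 + a 1 * (a 0 * b 0 - a 1 * b 1) + a 1 * (a 2 * b 2 - a 1 * b 1) + a 1 * c1
  m2 := -(2 * a 1 * b 1) - (a 2 * b 2 - a 1 * b 1)
  m3 := -(2 * a 1 * b 1) - (a 0 * b 0 - a 1 * b 1)
  l1 := a 1 * (a 1 * b 1 * c1 - c2)
  l2 := a 1 * (a 1 * b 1 * c1 - c2)
  l3 := -(a 1 * b 1 * c1 - c2)
  l0 := 0
  w1 := a 0 * b 0 * b 1
  w2 := b 0 * b 2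
  e1 := a 1

/-- The five invariants as functions of the three coordinates of the cubic surface. -/
def T5 (a b : Fin 3 → ℂ) (c1 c2 : ℂ) (α β η : ℂ) : Fin 5 → ℂ :=
  ![α, β, c1 - α - β, η - a 1 * (α + β),
    a 0 * a 2 * (a 2 * b 2 * α + a 0 * b 0 * β + a 1 * b 1 * (c1 - α - β) + α * β
      - b 1 * (η - a 1 * (α + β)) - c2)]

lemma chartCubic_E (a b : Fin 3 → ℂ) (c1 c2 α β η : ℂ) :
    (chartCubic a b c1 c2).E α β η =
      -((η - a 1 * (α + β)) * (a 2 * b 2 * α + a 0 * b 0 * β + a 1 * b 1 * (c1 - α - β) + α * β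
      - b 1 * (η - a 1 * (α + β)) - c2) - a 1 * (α * β * (c1 - α - β))) := by
  simp only [chartCubic, Cubic.E]
  ring

lemma chartCubic_good (O : Subring ℂ) (a b : Fin 3 → ℂ) (ha : a 0 * a 1 * a 2 = 1)
    (hb : b 0 * b 1 * b 2 = 1) (c1 c2 : ℂ) (haO : ∀ i, a i ∈ O) (hbO : ∀ i, b i ∈ O)
    (hc1 : c1 ∈ O) (hc2 : c2 ∈ O) : (chartCubic a b c1 c2).Good O := by
  have h2 : (2 : ℂ) ∈ O := by exact_mod_cast natCast_mem O 2
  refine ⟨?_, ?_, ?_, ?_, ?_⟩
  · simp only [chartCubic]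
    linear_combination (b 0 * b 1 * b 2) * ha + hb
  · simp only [chartCubic]
    linear_combination hb
  · simp only [chartCubic]
    intro h0
    rw [h0] at ha
    simp at ha
  · intro β
    rw [chartCubic_E]
    simp only [chartCubic]
    ring
  · simp only [chartCubic]
    have a0 := haO 0
    have a1 := haO 1
    have a2 := haO 2
    have b0 := hbO 0
    have b1 := hbO 1
    have b2 := hbO 2
    refine ⟨?_, ?_, ?_, ?_, ?_, ?_, ?_, ?_⟩
    · exact O.mul_mem (O.mul_mem a0 b0) b1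
    · exact O.mul_mem b0 b2
    · exact O.add_mem (O.add_mem (O.add_mem (O.mul_mem (O.mul_mem h2 b1) (O.pow_mem a1 2))
        (O.mul_mem a1 (O.sub_mem (O.mul_mem a0 b0) (O.mul_mem a1 b1))))
        (O.mul_mem a1 (O.sub_mem (O.mul_mem a2 b2) (O.mul_mem a1 b1)))) (O.mul_mem a1 hc1)
    · exact O.sub_mem (O.neg_mem (O.mul_mem (O.mul_mem h2 a1) b1))
        (O.sub_mem (O.mul_mem a2 b2) (O.mul_mem a1 b1))
    · exact O.sub_mem (O.neg_mem (O.mul_mem (O.mul_mem h2 a1) b1))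
        (O.sub_mem (O.mul_mem a0 b0) (O.mul_mem a1 b1))
    · exact O.mul_mem a1 (O.sub_mem (O.mul_mem (O.mul_mem a1 b1) hc1) hc2)
    · exact O.neg_mem (O.sub_mem (O.mul_mem (O.mul_mem a1 b1) hc1) hc2)
    · exact a1

lemma T5_mem (O : Subring ℂ) (a b : Fin 3 → ℂ) (c1 c2 : ℂ) (haO : ∀ i, a i ∈ O)
    (hbO : ∀ i, b i ∈ O) (hc1 : c1 ∈ O) (hc2 : c2 ∈ O) {α β η : ℂ} (hα : α ∈ O) (hβ : β ∈ O)
    (hη : η ∈ O) (i : Fin 5) : T5 a b c1 c2 α β η i ∈ O := by
  have a0 := haO 0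
  have a1 := haO 1
  have a2 := haO 2
  have b0 := hbO 0
  have b1 := hbO 1
  have b2 := hbO 2
  have hγ : c1 - α - β ∈ O := O.sub_mem (O.sub_mem hc1 hα) hβ
  have hδ : η - a 1 * (α + β) ∈ O := O.sub_mem hη (O.mul_mem a1 (O.add_mem hα hβ))
  fin_cases i
  · exact hα
  · exact hβ
  · exact hγ
  · exact hδ
  · exact O.mul_mem (O.mul_mem a0 a2) (O.sub_mem (O.sub_mem (O.add_mem (O.add_mem (O.add_mem
      (O.mul_mem (O.mul_mem a2 b2) hα) (O.mul_mem (O.mul_mem a0 b0) hβ))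
      (O.mul_mem (O.mul_mem a1 b1) hγ)) (O.mul_mem hα hβ)) (O.mul_mem b1 hδ)) hc2)

open Polynomial in
/-- The constants as polynomials in three variables. -/
noncomputable def Ccc : ℂ →+* ℂ[X][X][X] := (C.comp C).comp C

open Polynomial in
/-- The polynomial version of `T5`. -/
noncomputable def T5poly (a b : Fin 3 → ℂ) (c1 c2 : ℂ) : Fin 5 → ℂ[X][X][X] :=
  ![C X, C (C X), Ccc c1 + Ccc (-1) * C X + Ccc (-1) * C (C X),
    X + Ccc (-1) * (Ccc (a 1) * (C X + C (C X))),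
    Ccc (a 0 * a 2) * (Ccc (a 2 * b 2) * C X + Ccc (a 0 * b 0) * C (C X)
      + Ccc (a 1 * b 1) * (Ccc c1 + Ccc (-1) * C X + Ccc (-1) * C (C X)) + C X * C (C X)
      + Ccc (-1) * (Ccc (b 1) * (X + Ccc (-1) * (Ccc (a 1) * (C X + C (C X))))) + Ccc (-1) * Ccc c2)]

lemma phi_Ccc (β α η z : ℂ) : phi β α η (Ccc z) = z := by
  simp [phi, Ccc]

lemma phi_T5poly (a b : Fin 3 → ℂ) (c1 c2 β α η : ℂ) (G : MvPolynomial (Fin 5) ℂ) :
    phi β α η (MvPolynomial.eval₂ Ccc (T5poly a b c1 c2) G)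
      = MvPolynomial.eval (T5 a b c1 c2 α β η) G := by
  rw [MvPolynomial.eval₂_comp_left (phi β α η) Ccc (T5poly a b c1 c2) G]
  have h1 : (phi β α η).comp Ccc = RingHom.id ℂ := by
    ext z
    simp [phi_Ccc]
  have hX : phi β α η Polynomial.X = η := by simp [phi]
  have hCX : phi β α η (Polynomial.C Polynomial.X) = α := by simp [phi]
  have hCCX : phi β α η (Polynomial.C (Polynomial.C Polynomial.X)) = β := by simp [phi]
  have h2 : (phi β α η) ∘ (T5poly a b c1 c2) = T5 a b c1 c2 α β η := by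
    funext i
    fin_cases i <;>
      simp only [T5poly, T5, phi_Ccc, hX, hCX, hCCX, map_add, map_mul, Function.comp_apply,
        Fin.zero_eta, Fin.mk_one, Fin.reduceFinMk, Matrix.cons_val_zero, Matrix.cons_val_one,
        Matrix.cons_val] <;> ring
  rw [h1, h2, MvPolynomial.eval₂_id]

/-- **Density on one chart.** -/
theorem chart_dense (O : Subring ℂ) (a b : Fin 3 → ℂ) (ha : a 0 * a 1 * a 2 = 1)
    (hb : b 0 * b 1 * b 2 = 1) (haO : ∀ i, a i ∈ O) (hbO : ∀ i, b i ∈ O) (t1 t2 : ℂ)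
    (ht1 : t1 ∈ O) (ht2 : t2 ∈ O)
    (k : ℕ) (w : Fin k → FreeGroup (Fin 2)) (F : MvPolynomial (Fin k) ℂ)
    (hF : ∀ v : Fin 6 → ℂ, tr1 a b v = t1 → tr2 a b v = t2 →
      (∀ g, ((rho a b ha hb v g : SpecialLinearGroup (Fin 3) ℂ) :
        Matrix (Fin 3) (Fin 3) ℂ).trace ∈ O) →
      MvPolynomial.eval (fun i => ((rho a b ha hb v (w i) : SpecialLinearGroup (Fin 3) ℂ) :
        Matrix (Fin 3) (Fin 3) ℂ).trace) F = 0)
    (v : Fin 6 → ℂ) (h1 : tr1 a b v = t1) (h2 : tr2 a b v = t2) :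
    MvPolynomial.eval (fun i => ((rho a b ha hb v (w i) : SpecialLinearGroup (Fin 3) ℂ) :
        Matrix (Fin 3) (Fin 3) ℂ).trace) F = 0 := by
  obtain ⟨G, hG⟩ := poly5 a b ha hb k w F
  set c1 : ℂ := t1 - (a 0 * b 0 + a 1 * b 1 + a 2 * b 2) with hc1
  set c2 : ℂ := t2 - (a 1 * a 2 * b 1 * b 2 + a 0 * a 2 * b 0 * b 2 + a 0 * a 1 * b 0 * b 1) with hc2
  have a0 := haO 0
  have a1 := haO 1
  have a2 := haO 2
  have b0 := hbO 0
  have b1 := hbO 1
  have b2 := hbO 2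
  have hc1O : c1 ∈ O := O.sub_mem ht1 (O.add_mem (O.add_mem (O.mul_mem a0 b0) (O.mul_mem a1 b1))
    (O.mul_mem a2 b2))
  have hc2O : c2 ∈ O := O.sub_mem ht2 (O.add_mem (O.add_mem
    (O.mul_mem (O.mul_mem (O.mul_mem a1 a2) b1) b2) (O.mul_mem (O.mul_mem (O.mul_mem a0 a2) b0) b2))
    (O.mul_mem (O.mul_mem (O.mul_mem a0 a1) b0) b1))
  have good := chartCubic_good O a b ha hb c1 c2 haO hbO hc1O hc2O
  set F3 := MvPolynomial.eval₂ Ccc (T5poly a b c1 c2) G with hF3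
  have key := (chartCubic a b c1 c2).dense good F3 ?_
  · -- the given point
    set α := inv5 v 0 with hα
    set β := inv5 v 1 with hβ
    set η := inv5 v 3 + a 1 * (α + β) with hη
    have hγ : inv5 v 2 = c1 - α - β := by
      rw [hc1, ← h1, tr1]; ring
    have hε : a 1 * inv5 v 4 = a 2 * b 2 * α + a 0 * b 0 * β + a 1 * b 1 * (c1 - α - β) + α * β
        - b 1 * (η - a 1 * (α + β)) - c2 := by
      rw [← hγ, hc2, ← h2, tr2, hη]; ring
    have hT : T5 a b c1 c2 α β η = inv5 v := by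
      funext i
      fin_cases i
      · rfl
      · rfl
      · exact hγ.symm
      · simp [T5, hη]
      · change a 0 * a 2 * (a 2 * b 2 * α + a 0 * b 0 * β + a 1 * b 1 * (c1 - α - β) + α * β
          - b 1 * (η - a 1 * (α + β)) - c2) = inv5 v 4
        rw [← hε]
        linear_combination (inv5 v 4) * ha
    have hE : (chartCubic a b c1 c2).E α β η = 0 := by
      rw [chartCubic_E, ← hε, ← hγ]
      have h3 : η - a 1 * (α + β) = inv5 v 3 := by rw [hη]; ring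
      rw [h3]
      linear_combination (-(a 1)) * inv5_rel v
    have := key α β η hE
    rw [hF3, phi_T5poly, hT] at this
    rw [hG, this]
  · -- integral points
    intro α hα β hβ η hη hE
    rw [hF3, phi_T5poly]
    have hrel : T5 a b c1 c2 α β η 3 * T5 a b c1 c2 α β η 4
        = T5 a b c1 c2 α β η 0 * T5 a b c1 c2 α β η 1 * T5 a b c1 c2 α β η 2 := by
      rw [chartCubic_E] at hE
      simp only [T5, Matrix.cons_val_zero, Matrix.cons_val_one, Matrix.cons_val]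
      linear_combination (-(a 0 * a 2)) * hE + (α * β * (c1 - α - β)) * ha
    obtain ⟨v', hv'⟩ := exists_lift _ _ _ _ _ hrel
    have hv'' : inv5 v' = T5 a b c1 c2 α β η := by
      rw [hv']
      funext i
      fin_cases i <;> rfl
    rw [← hv'', ← hG]
    apply hF
    · rw [tr1, hv'']
      simp only [T5, Matrix.cons_val_zero, Matrix.cons_val_one, Matrix.cons_val]
      rw [hc1]; ring
    · rw [tr2, hv'']
      simp only [T5, Matrix.cons_val_zero, Matrix.cons_val_one, Matrix.cons_val]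
      rw [hc2]
      linear_combination (-(a 2 * b 2 * α + a 0 * b 0 * β + a 1 * b 1 * (c1 - α - β) + α * β
        - b 1 * (η - a 1 * (α + β)) - c2)) * ha
    · intro g
      apply trace_rho_mem O a b ha hb v' _ haO hbO
      intro i
      rw [hv'']
      exact T5_mem O a b c1 c2 haO hbO hc1O hc2O hα hβ hη i

end Vale.Agent.P002
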