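import Vale.Agent.P002.Rep

/-!
# Existence of triangular charts

Two diagonalisable 3 x 3 matrices can be brought simultaneously to (upper triangular, lower
triangular) form, for suitable orderings of their eigenvalues.
-/

namespace Vale.Agent.P002

open Matrix

lemma exists_perm_two : ∀ i j : Fin 3, i ≠ j → ∃ σ : Equiv.Perm (Fin 3), σ 0 = i ∧ σ 1 = j := by
  decide

/-- An invertible 3 x 3 matrix has, after permuting rows and columns, nonzero leading minors. -/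
lemma exists_perm_minors (N : Matrix (Fin 3) (Fin 3) ℂ) (h : N.det ≠ 0) :
    ∃ σ τ : Equiv.Perm (Fin 3), N (τ 0) (σ 0) ≠ 0 ∧
      N (τ 0) (σ 0) * N (τ 1) (σ 1) - N (τ 0) (σ 1) * N (τ 1) (σ 0) ≠ 0 := by
  by_contra hcon
  push Not at hcon
  have minor : ∀ r0 r1 c0 c1 : Fin 3, r0 ≠ r1 → c0 ≠ c1 →
      N r0 c0 * N r1 c1 - N r0 c1 * N r1 c0 = 0 := by
    intro r0 r1 c0 c1 hr hc
    obtain ⟨τ, hτ0, hτ1⟩ := exists_perm_two r0 r1 hr
    obtain ⟨σ, hσ0, hσ1⟩ := exists_perm_two c0 c1 hc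
    obtain ⟨σ', hσ0', hσ1'⟩ := exists_perm_two c1 c0 hc.symm
    by_cases h1 : N r0 c0 = 0
    · by_cases h2 : N r0 c1 = 0
      · rw [h1, h2]; ring
      · have := hcon σ' τ (by rw [hτ0, hσ0']; exact h2)
        rw [hτ0, hτ1, hσ0', hσ1'] at this
        linear_combination -this
    · have := hcon σ τ (by rw [hτ0, hσ0]; exact h1)
      rw [hτ0, hτ1, hσ0, hσ1] at this
      exact this
  apply h
  rw [det_fin_three]
  have m1 := minor 1 2 1 2 (by decide) (by decide)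
  have m2 := minor 1 2 0 2 (by decide) (by decide)
  have m3 := minor 1 2 0 1 (by decide) (by decide)
  linear_combination N 0 0 * m1 - N 0 1 * m2 + N 0 2 * m3

/-- The chart for a pair of eigenbases in general position. -/
lemma chart_of_minors (A B P Q N : Matrix (Fin 3) (Fin 3) ℂ) (a b : Fin 3 → ℂ)
    (hA : A * P = P * diagonal a) (hB : B * Q = Q * diagonal b) (hQN : Q * N = P)
    (hQ : Q.det ≠ 0) (hN : N.det ≠ 0) (h0 : N 0 0 ≠ 0)
    (h1 : N 0 0 * N 1 1 - N 0 1 * N 1 0 ≠ 0) :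
    ∃ (g : Matrix (Fin 3) (Fin 3) ℂ) (v : Fin 6 → ℂ), g.det ≠ 0 ∧
      A * g = g * Umat a v ∧ B * g = g * Lmat b v := by
  obtain ⟨l10, hl10⟩ : ∃ l, l * N 0 0 = N 1 0 := ⟨N 1 0 / N 0 0, by field_simp⟩
  obtain ⟨l20, hl20⟩ : ∃ l, l * N 0 0 = N 2 0 := ⟨N 2 0 / N 0 0, by field_simp⟩
  obtain ⟨u11, hu11⟩ : ∃ u, u = N 1 1 - l10 * N 0 1 := ⟨_, rfl⟩
  obtain ⟨u12, hu12⟩ : ∃ u, u = N 1 2 - l10 * N 0 2 := ⟨_, rfl⟩
  have hu11' : u11 ≠ 0 := by
    intro h
    apply h1
    have : u11 * N 0 0 = N 0 0 * N 1 1 - N 0 1 * N 1 0 := by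
      rw [hu11]; linear_combination (-(N 0 1)) * hl10
    rw [← this, h, zero_mul]
  obtain ⟨l21, hl21⟩ : ∃ l, l * u11 = N 2 1 - l20 * N 0 1 :=
    ⟨(N 2 1 - l20 * N 0 1) / u11, by field_simp⟩
  obtain ⟨u22, hu22⟩ : ∃ u, u = N 2 2 - l20 * N 0 2 - l21 * u12 := ⟨_, rfl⟩
  obtain ⟨Lw, hLw⟩ : ∃ Lw : Matrix (Fin 3) (Fin 3) ℂ, Lw = !![1, 0, 0; l10, 1, 0; l20, l21, 1] :=
    ⟨_, rfl⟩
  obtain ⟨Up, hUp⟩ : ∃ Up : Matrix (Fin 3) (Fin 3) ℂ,
    Up = !![N 0 0, N 0 1, N 0 2; 0, u11, u12; 0, 0, u22] := ⟨_, rfl⟩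
  have hLU : Lw * Up = N := by
    ext i j
    fin_cases i <;> fin_cases j <;>
      simp [hLw, hUp, Matrix.mul_apply, Fin.sum_univ_three] <;>
      first
        | exact hl10
        | exact hl20
        | linear_combination hu11
        | linear_combination hu12
        | linear_combination hl21
        | linear_combination hu22
  have hLwdet : Lw.det = 1 := by
    rw [hLw, det_fin_three]
    simp
  have hUpdet' : Up.det = N 0 0 * u11 * u22 := by
    rw [hUp, det_fin_three]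
    simp
  have hUpdet : Up.det ≠ 0 := by
    rw [← hLU, det_mul, hLwdet, one_mul] at hN
    exact hN
  have hu22' : u22 ≠ 0 := by
    intro h
    apply hUpdet
    rw [hUpdet', h, mul_zero]
  obtain ⟨x, hx⟩ : ∃ x, x * u11 = N 0 1 * (a 1 - a 0) := ⟨N 0 1 * (a 1 - a 0) / u11, by field_simp⟩
  obtain ⟨z, hz⟩ : ∃ z, z * u22 = u12 * (a 2 - a 1) := ⟨u12 * (a 2 - a 1) / u22, by field_simp⟩
  obtain ⟨y, hy⟩ : ∃ y, y * u22 = N 0 2 * (a 2 - a 0) - x * u12 :=
    ⟨(N 0 2 * (a 2 - a 0) - x * u12) / u22, by field_simp⟩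
  obtain ⟨p, hp⟩ : ∃ p, p = l10 * (b 1 - b 0) := ⟨_, rfl⟩
  obtain ⟨s, hs⟩ : ∃ s, s = l21 * (b 2 - b 1) := ⟨_, rfl⟩
  obtain ⟨q, hq⟩ : ∃ q, q = l20 * (b 2 - b 0) - l21 * p := ⟨_, rfl⟩
  refine ⟨Q * Lw, ![x, y, z, p, q, s], ?_, ?_, ?_⟩
  · rw [det_mul, hLwdet, mul_one]; exact hQ
  · have e1 : Up * diagonal a = Umat a ![x, y, z, p, q, s] * Up := by
      ext i j
      fin_cases i <;> fin_cases j <;>
        simp [hUp, Umat, Matrix.mul_apply, Fin.sum_univ_three, Matrix.diagonal_apply] <;>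
        first
          | ring1
          | linear_combination -hx
          | linear_combination -hy
          | linear_combination -hz
    have e2 : Up * Up⁻¹ = 1 := Matrix.mul_nonsing_inv _ (Ne.isUnit hUpdet)
    have e3 : Q * Lw * Up = P := by rw [Matrix.mul_assoc, hLU, hQN]
    calc A * (Q * Lw) = A * (Q * Lw) * (Up * Up⁻¹) := by rw [e2, Matrix.mul_one]
      _ = A * (Q * Lw * Up) * Up⁻¹ := by simp only [Matrix.mul_assoc]
      _ = (Q * Lw * Up) * diagonal a * Up⁻¹ := by rw [e3, hA]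
      _ = Q * Lw * (Up * diagonal a) * Up⁻¹ := by simp only [Matrix.mul_assoc]
      _ = Q * Lw * (Umat a ![x, y, z, p, q, s] * Up) * Up⁻¹ := by rw [e1]
      _ = Q * Lw * Umat a ![x, y, z, p, q, s] * (Up * Up⁻¹) := by simp only [Matrix.mul_assoc]
      _ = Q * Lw * Umat a ![x, y, z, p, q, s] := by rw [e2, Matrix.mul_one]
  · have e1 : diagonal b * Lw = Lw * Lmat b ![x, y, z, p, q, s] := by
      ext i j
      fin_cases i <;> fin_cases j <;>
        simp [hLw, Lmat, Matrix.mul_apply, Fin.sum_univ_three, Matrix.diagonal_apply] <;>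
        first
          | ring1
          | linear_combination -hp
          | linear_combination -hq
          | linear_combination -hs
    rw [← Matrix.mul_assoc, hB, Matrix.mul_assoc, e1, Matrix.mul_assoc]

/-- **Existence of charts.** -/
theorem exists_chart (A B P Q : Matrix (Fin 3) (Fin 3) ℂ) (a b : Fin 3 → ℂ)
    (hA : A * P = P * diagonal a) (hB : B * Q = Q * diagonal b)
    (hP : P.det ≠ 0) (hQ : Q.det ≠ 0) :
    ∃ (σ τ : Equiv.Perm (Fin 3)) (g : Matrix (Fin 3) (Fin 3) ℂ) (v : Fin 6 → ℂ), g.det ≠ 0 ∧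
      A * g = g * Umat (a ∘ σ) v ∧ B * g = g * Lmat (b ∘ τ) v := by
  set N := Q⁻¹ * P with hN
  have hQQ : Q * Q⁻¹ = 1 := Matrix.mul_nonsing_inv _ (Ne.isUnit hQ)
  have hQN : Q * N = P := by rw [hN, ← Matrix.mul_assoc, hQQ, Matrix.one_mul]
  have hNdet : N.det ≠ 0 := by
    intro h0
    apply hP
    rw [← hQN, det_mul, h0, mul_zero]
  obtain ⟨σ, τ, h0, h1⟩ := exists_perm_minors N hNdet
  have hP' : (P.submatrix id σ).det ≠ 0 := by
    rw [Matrix.det_permute']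
    exact mul_ne_zero (Int.cast_ne_zero.mpr (Units.ne_zero _)) hP
  have hQ' : (Q.submatrix id τ).det ≠ 0 := by
    rw [Matrix.det_permute']
    exact mul_ne_zero (Int.cast_ne_zero.mpr (Units.ne_zero _)) hQ
  have hQN' : Q.submatrix id τ * N.submatrix τ σ = P.submatrix id σ := by
    rw [Matrix.submatrix_mul_equiv, hQN]
  have hN' : (N.submatrix τ σ).det ≠ 0 := by
    intro h0
    apply hP'
    rw [← hQN', det_mul, h0, mul_zero]
  have hA' : A * P.submatrix id σ = P.submatrix id σ * diagonal (a ∘ σ) := by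
    ext i j
    have := congrFun (congrFun hA i) (σ j)
    rw [Matrix.mul_diagonal, Matrix.mul_apply] at this
    rw [Matrix.mul_diagonal, Matrix.mul_apply]
    simpa using this
  have hB' : B * Q.submatrix id τ = Q.submatrix id τ * diagonal (b ∘ τ) := by
    ext i j
    have := congrFun (congrFun hB i) (τ j)
    rw [Matrix.mul_diagonal, Matrix.mul_apply] at this
    rw [Matrix.mul_diagonal, Matrix.mul_apply]
    simpa using this
  obtain ⟨g, v, hg, h2, h3⟩ := chart_of_minors A B _ _ _ (a ∘ σ) (b ∘ τ) hA' hB' hQN' hQ' hN'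
    (by simpa using h0) (by simpa using h1)
  exact ⟨σ, τ, g, v, hg, h2, h3⟩

end Vale.Agent.P002
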