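import Mathlib

/-!
# Rank three local systems on the three punctured sphere: definitions
-/

namespace Vale.Agent.P002

open Matrix

/-- The diagonal matrix with entries `c` as an element of `SL(3, ℂ)`. -/
def diagSL (c : Fin 3 → ℂ) (h : c 0 * c 1 * c 2 = 1) : SpecialLinearGroup (Fin 3) ℂ :=
  ⟨Matrix.diagonal c, by rw [det_diagonal, Fin.prod_univ_three, h]⟩

/-- The boundary conditions for a rank three local system on the three punctured sphere: the
monodromies around the three punctures lie in the conjugacy classes of `diag a`, `diag b`,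
`diag c` in `SL(3, ℂ)`.  The fundamental group is free on the meridians `γ₁ = of 0`, `γ₂ = of 1`,
and the third meridian is `γ₃ = (γ₁ γ₂)⁻¹`. -/
def Bdry (a b c : Fin 3 → ℂ) (ha : a 0 * a 1 * a 2 = 1) (hb : b 0 * b 1 * b 2 = 1)
    (hc : c 0 * c 1 * c 2 = 1) (ρ : FreeGroup (Fin 2) →* SpecialLinearGroup (Fin 3) ℂ) : Prop :=
  IsConj (ρ (FreeGroup.of 0)) (diagSL a ha) ∧ IsConj (ρ (FreeGroup.of 1)) (diagSL b hb) ∧
    IsConj (ρ (FreeGroup.of 0 * FreeGroup.of 1)⁻¹) (diagSL c hc)

end Vale.Agent.P002
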