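import Vale.Agent.P002.Rep
import Vale.Agent.P002.Defs

/-!
# Conjugacy classes of regular semisimple elements and existence of triangular charts
-/

namespace Vale.Agent.P002

open Matrix

lemma trace_conj_SL (g M : SpecialLinearGroup (Fin 3) ℂ) :
    ((g * M * g⁻¹ : SpecialLinearGroup (Fin 3) ℂ) : Matrix (Fin 3) (Fin 3) ℂ).trace
      = (M : Matrix (Fin 3) (Fin 3) ℂ).trace := by
  have h1 : ((g * M * g⁻¹ : SpecialLinearGroup (Fin 3) ℂ) : Matrix (Fin 3) (Fin 3) ℂ)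
      = (g : Matrix (Fin 3) (Fin 3) ℂ) * (M : Matrix (Fin 3) (Fin 3) ℂ)
        * (g : Matrix (Fin 3) (Fin 3) ℂ).adjugate := rfl
  rw [h1, trace_mul_cycle, adjugate_mul, g.2, one_smul, one_mul]

lemma inv_eq_of_prod {c : Fin 3 → ℂ} (h : c 0 * c 1 * c 2 = 1) :
    (c 0)⁻¹ = c 1 * c 2 ∧ (c 1)⁻¹ = c 0 * c 2 ∧ (c 2)⁻¹ = c 0 * c 1 := by
  refine ⟨?_, ?_, ?_⟩
  · rw [inv_eq_iff_eq_inv]; exact eq_inv_of_mul_eq_one_left (by linear_combination h)
  · rw [inv_eq_iff_eq_inv]; exact eq_inv_of_mul_eq_one_left (by linear_combination h)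
  · rw [inv_eq_iff_eq_inv]; exact eq_inv_of_mul_eq_one_left (by linear_combination h)

lemma trace_diagSL (c : Fin 3 → ℂ) (h : c 0 * c 1 * c 2 = 1) :
    ((diagSL c h : SpecialLinearGroup (Fin 3) ℂ) : Matrix (Fin 3) (Fin 3) ℂ).trace = ∑ i, c i := by
  change (Matrix.diagonal c).trace = _
  rw [trace_diagonal]

lemma trace_diagSL_inv (c : Fin 3 → ℂ) (h : c 0 * c 1 * c 2 = 1) :
    (((diagSL c h)⁻¹ : SpecialLinearGroup (Fin 3) ℂ) : Matrix (Fin 3) (Fin 3) ℂ).trace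
      = ∑ i, (c i)⁻¹ := by
  change (Matrix.diagonal c).adjugate.trace = _
  obtain ⟨h0, h1, h2⟩ := inv_eq_of_prod h
  rw [adjugate_fin_three, trace_fin_three, Fin.sum_univ_three, h0, h1, h2]
  simp

/-- Traces of an element of the conjugacy class of a diagonal matrix. -/
lemma trace_of_isConj {M : SpecialLinearGroup (Fin 3) ℂ} {c : Fin 3 → ℂ}
    {h : c 0 * c 1 * c 2 = 1} (hM : IsConj M (diagSL c h)) :
    (M : Matrix (Fin 3) (Fin 3) ℂ).trace = ∑ i, c i ∧
      ((M⁻¹ : SpecialLinearGroup (Fin 3) ℂ) : Matrix (Fin 3) (Fin 3) ℂ).trace = ∑ i, (c i)⁻¹ := by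
  obtain ⟨g, hg⟩ := isConj_iff.mp hM
  constructor
  · rw [← trace_diagSL c h, ← hg, trace_conj_SL]
  · rw [← trace_diagSL_inv c h, ← hg]
    have : (g * M * g⁻¹)⁻¹ = g * M⁻¹ * g⁻¹ := by group
    rw [this, trace_conj_SL]

lemma det_sub_smul (M : Matrix (Fin 3) (Fin 3) ℂ) (t : ℂ) :
    (M - t • (1 : Matrix (Fin 3) (Fin 3) ℂ)).det
      = M.det - t * M.adjugate.trace + t ^ 2 * M.trace - t ^ 3 := by
  rw [det_fin_three, adjugate_fin_three, trace_fin_three, trace_fin_three, det_fin_three]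
  simp
  ring

/-- A matrix in `SL(3, ℂ)` with the traces of a regular diagonal matrix is conjugate to it. -/
lemma isConj_of_trace {M : SpecialLinearGroup (Fin 3) ℂ} {c : Fin 3 → ℂ}
    (h : c 0 * c 1 * c 2 = 1) (hc : Function.Injective c)
    (h1 : (M : Matrix (Fin 3) (Fin 3) ℂ).trace = ∑ i, c i)
    (h2 : ((M⁻¹ : SpecialLinearGroup (Fin 3) ℂ) : Matrix (Fin 3) (Fin 3) ℂ).trace
      = ∑ i, (c i)⁻¹) : IsConj M (diagSL c h) := by
  set N : Matrix (Fin 3) (Fin 3) ℂ := (M : Matrix (Fin 3) (Fin 3) ℂ) with hN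
  have h2' : N.adjugate.trace = ∑ i, (c i)⁻¹ := h2
  obtain ⟨i0, i1, i2⟩ := inv_eq_of_prod h
  rw [Fin.sum_univ_three, i0, i1, i2] at h2'
  rw [Fin.sum_univ_three] at h1
  have hdet : ∀ i, (N - c i • (1 : Matrix (Fin 3) (Fin 3) ℂ)).det = 0 := by
    intro i
    rw [det_sub_smul, h2', h1, M.2]
    fin_cases i
    · change 1 - c 0 * _ + c 0 ^ 2 * _ - c 0 ^ 3 = 0
      linear_combination -h
    · change 1 - c 1 * _ + c 1 ^ 2 * _ - c 1 ^ 3 = 0
      linear_combination -h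
    · change 1 - c 2 * _ + c 2 ^ 2 * _ - c 2 ^ 3 = 0
      linear_combination -h
  have hex : ∀ i, ∃ v : Fin 3 → ℂ, v ≠ 0 ∧ N *ᵥ v = c i • v := by
    intro i
    obtain ⟨v, hv0, hv⟩ := Matrix.exists_mulVec_eq_zero_iff.mpr (hdet i)
    refine ⟨v, hv0, ?_⟩
    rw [sub_mulVec, smul_mulVec, one_mulVec, sub_eq_zero] at hv
    exact hv
  choose v hv0 hv using hex
  have hli : LinearIndependent ℂ v := by
    apply Module.End.eigenvectors_linearIndependent' (Matrix.toLin' N) c hc v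
    intro i
    refine ⟨?_, hv0 i⟩
    rw [Module.End.mem_eigenspace_iff, Matrix.toLin'_apply]
    exact hv i
  set P : Matrix (Fin 3) (Fin 3) ℂ := Matrix.of fun i j => v j i with hP
  have hPu : IsUnit P := by
    rw [← Matrix.linearIndependent_cols_iff_isUnit]
    exact hli
  have hd : P.det ≠ 0 := by
    have := (Matrix.isUnit_iff_isUnit_det P).mp hPu
    exact this.ne_zero
  have hNP : N * P = P * Matrix.diagonal c := by
    ext i j
    rw [Matrix.mul_diagonal, Matrix.mul_apply]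
    have := congrFun (hv j) i
    simp only [Matrix.mulVec, dotProduct, Pi.smul_apply, smul_eq_mul] at this
    simp only [hP, Matrix.of_apply]
    rw [this, mul_comm]
  set Dl : Matrix (Fin 3) (Fin 3) ℂ := Matrix.diagonal ![(P.det)⁻¹, 1, 1] with hDl
  have hdet' : (P * Dl).det = 1 := by
    rw [det_mul, hDl, det_diagonal, Fin.prod_univ_three]
    simp [hd]
  set g : SpecialLinearGroup (Fin 3) ℂ := ⟨P * Dl, hdet'⟩ with hg
  have hMg : M * g = g * diagSL c h := by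
    apply Subtype.ext
    change N * (P * Dl) = (P * Dl) * Matrix.diagonal c
    rw [← Matrix.mul_assoc, hNP, Matrix.mul_assoc, Matrix.mul_assoc, hDl,
      Matrix.diagonal_mul_diagonal, Matrix.diagonal_mul_diagonal]
    congr 2
    funext i
    ring
  rw [isConj_iff]
  refine ⟨g⁻¹, ?_⟩
  rw [inv_inv, mul_assoc, hMg, ← mul_assoc, inv_mul_cancel, one_mul]

end Vale.Agent.P002
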