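import Vale.Agent.P002.ChartThm
import Vale.Agent.P002.Conj
import Vale.Agent.P002.Charts

/-!
# Density of integral points, for a general subring of the complex numbers
-/

namespace Vale.Agent.P002

open Matrix

lemma prod_perm (a : Fin 3 → ℂ) (σ : Equiv.Perm (Fin 3)) (ha : a 0 * a 1 * a 2 = 1) :
    (a ∘ σ) 0 * (a ∘ σ) 1 * (a ∘ σ) 2 = 1 := by
  have := Equiv.prod_comp σ a
  rw [Fin.prod_univ_three, Fin.prod_univ_three] at this
  simp only [Function.comp_apply]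
  rw [this, ha]

lemma isConj_USL (a : Fin 3 → ℂ) (σ : Equiv.Perm (Fin 3)) (ha : a 0 * a 1 * a 2 = 1)
    (hai : Function.Injective a) (v : Fin 6 → ℂ) :
    IsConj (USL (a ∘ σ) (prod_perm a σ ha) v) (diagSL a ha) := by
  apply isConj_of_trace ha hai
  · change (Umat (a ∘ σ) v).trace = _
    rw [← Equiv.sum_comp σ a, Fin.sum_univ_three, trace_fin_three]
    simp [Umat]
  · change (Umat (a ∘ σ) v).adjugate.trace = _
    obtain ⟨h0, h1, h2⟩ := inv_eq_of_prod (prod_perm a σ ha)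
    rw [← Equiv.sum_comp σ (fun i => (a i)⁻¹), Fin.sum_univ_three, adj_Umat, trace_fin_three]
    simp only [Function.comp_apply] at h0 h1 h2
    rw [h0, h1, h2]
    simp

lemma isConj_LSL (b : Fin 3 → ℂ) (τ : Equiv.Perm (Fin 3)) (hb : b 0 * b 1 * b 2 = 1)
    (hbi : Function.Injective b) (v : Fin 6 → ℂ) :
    IsConj (LSL (b ∘ τ) (prod_perm b τ hb) v) (diagSL b hb) := by
  apply isConj_of_trace hb hbi
  · change (Lmat (b ∘ τ) v).trace = _
    rw [← Equiv.sum_comp τ b, Fin.sum_univ_three, trace_fin_three]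
    simp [Lmat]
  · change (Lmat (b ∘ τ) v).adjugate.trace = _
    obtain ⟨h0, h1, h2⟩ := inv_eq_of_prod (prod_perm b τ hb)
    rw [← Equiv.sum_comp τ (fun i => (b i)⁻¹), Fin.sum_univ_three, adj_Lmat, trace_fin_three]
    simp only [Function.comp_apply] at h0 h1 h2
    rw [h0, h1, h2]
    simp

/-- Intertwined representations have the same traces. -/
lemma trace_eq_of_intertwine (ρ ρ' : FreeGroup (Fin 2) →* SpecialLinearGroup (Fin 3) ℂ)
    (g : Matrix (Fin 3) (Fin 3) ℂ) (hg : g.det ≠ 0)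
    (h : ∀ i, (ρ (FreeGroup.of i) : Matrix (Fin 3) (Fin 3) ℂ) * g
      = g * (ρ' (FreeGroup.of i) : Matrix (Fin 3) (Fin 3) ℂ)) (w : FreeGroup (Fin 2)) :
    (ρ w : Matrix (Fin 3) (Fin 3) ℂ).trace = (ρ' w : Matrix (Fin 3) (Fin 3) ℂ).trace := by
  have key : ∀ w : FreeGroup (Fin 2), (ρ w : Matrix (Fin 3) (Fin 3) ℂ) * g
      = g * (ρ' w : Matrix (Fin 3) (Fin 3) ℂ) := by
    intro w
    induction w using FreeGroup.induction_on with
    | C1 =>
      rw [map_one, map_one]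
      change (1 : Matrix (Fin 3) (Fin 3) ℂ) * g = g * (1 : Matrix (Fin 3) (Fin 3) ℂ)
      rw [Matrix.one_mul, Matrix.mul_one]
    | of i => exact h i
    | inv_of i hi =>
      rw [map_inv, map_inv]
      set X := ρ (FreeGroup.of i) with hX
      set Y := ρ' (FreeGroup.of i) with hY
      change (X : Matrix (Fin 3) (Fin 3) ℂ).adjugate * g
        = g * (Y : Matrix (Fin 3) (Fin 3) ℂ).adjugate
      have hXX : (X : Matrix (Fin 3) (Fin 3) ℂ).adjugate * (X : Matrix (Fin 3) (Fin 3) ℂ) = 1 := by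
        rw [adjugate_mul, X.2, one_smul]
      have hYY : (Y : Matrix (Fin 3) (Fin 3) ℂ) * (Y : Matrix (Fin 3) (Fin 3) ℂ).adjugate = 1 := by
        rw [mul_adjugate, Y.2, one_smul]
      calc (X : Matrix (Fin 3) (Fin 3) ℂ).adjugate * g
          = (X : Matrix (Fin 3) (Fin 3) ℂ).adjugate * g * ((Y : Matrix (Fin 3) (Fin 3) ℂ)
            * (Y : Matrix (Fin 3) (Fin 3) ℂ).adjugate) := by rw [hYY, Matrix.mul_one]
        _ = (X : Matrix (Fin 3) (Fin 3) ℂ).adjugate * (g * (Y : Matrix (Fin 3) (Fin 3) ℂ))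
            * (Y : Matrix (Fin 3) (Fin 3) ℂ).adjugate := by simp only [Matrix.mul_assoc]
        _ = (X : Matrix (Fin 3) (Fin 3) ℂ).adjugate * ((X : Matrix (Fin 3) (Fin 3) ℂ) * g)
            * (Y : Matrix (Fin 3) (Fin 3) ℂ).adjugate := by rw [hi]
        _ = ((X : Matrix (Fin 3) (Fin 3) ℂ).adjugate * (X : Matrix (Fin 3) (Fin 3) ℂ)) * g
            * (Y : Matrix (Fin 3) (Fin 3) ℂ).adjugate := by simp only [Matrix.mul_assoc]
        _ = g * (Y : Matrix (Fin 3) (Fin 3) ℂ).adjugate := by rw [hXX, Matrix.one_mul]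
    | mul x y hx hy =>
      rw [map_mul, map_mul]
      change (ρ x : Matrix (Fin 3) (Fin 3) ℂ) * (ρ y : Matrix (Fin 3) (Fin 3) ℂ) * g
        = g * ((ρ' x : Matrix (Fin 3) (Fin 3) ℂ) * (ρ' y : Matrix (Fin 3) (Fin 3) ℂ))
      rw [Matrix.mul_assoc, hy, ← Matrix.mul_assoc, hx, Matrix.mul_assoc]
  have e2 : g * g⁻¹ = 1 := Matrix.mul_nonsing_inv _ (Ne.isUnit hg)
  have e3 : g⁻¹ * g = 1 := Matrix.nonsing_inv_mul _ (Ne.isUnit hg)
  calc (ρ w : Matrix (Fin 3) (Fin 3) ℂ).trace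
      = ((ρ w : Matrix (Fin 3) (Fin 3) ℂ) * g * g⁻¹).trace := by
        rw [Matrix.mul_assoc, e2, Matrix.mul_one]
    _ = (g * (ρ' w : Matrix (Fin 3) (Fin 3) ℂ) * g⁻¹).trace := by rw [key w]
    _ = (ρ' w : Matrix (Fin 3) (Fin 3) ℂ).trace := by
        rw [trace_mul_cycle, e3, Matrix.one_mul]

/-- **Density of integral points over an arbitrary subring.** -/
theorem main_subring (O : Subring ℂ) (a b c : Fin 3 → ℂ) (ha : a 0 * a 1 * a 2 = 1)
    (hb : b 0 * b 1 * b 2 = 1) (hc : c 0 * c 1 * c 2 = 1)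
    (hai : Function.Injective a) (hbi : Function.Injective b) (hci : Function.Injective c)
    (haO : ∀ i, a i ∈ O) (hbO : ∀ i, b i ∈ O) (hcO : ∀ i, c i ∈ O)
    (k : ℕ) (w : Fin k → FreeGroup (Fin 2)) (F : MvPolynomial (Fin k) ℂ)
    (hF : ∀ ρ : FreeGroup (Fin 2) →* SpecialLinearGroup (Fin 3) ℂ, Bdry a b c ha hb hc ρ →
      (∀ g, (ρ g : Matrix (Fin 3) (Fin 3) ℂ).trace ∈ O) →
      MvPolynomial.eval (fun i => (ρ (w i) : Matrix (Fin 3) (Fin 3) ℂ).trace) F = 0)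
    (ρ : FreeGroup (Fin 2) →* SpecialLinearGroup (Fin 3) ℂ) (hρ : Bdry a b c ha hb hc ρ) :
    MvPolynomial.eval (fun i => (ρ (w i) : Matrix (Fin 3) (Fin 3) ℂ).trace) F = 0 := by
  obtain ⟨hA, hB, hC⟩ := hρ
  obtain ⟨gA, hgA⟩ := isConj_iff.mp hA
  obtain ⟨gB, hgB⟩ := isConj_iff.mp hB
  have hA' : ρ (FreeGroup.of 0) * gA⁻¹ = gA⁻¹ * diagSL a ha := by
    rw [← hgA]; group
  have hB' : ρ (FreeGroup.of 1) * gB⁻¹ = gB⁻¹ * diagSL b hb := by
    rw [← hgB]; group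
  have hA'' : (ρ (FreeGroup.of 0) : Matrix (Fin 3) (Fin 3) ℂ)
      * ((gA⁻¹ : SpecialLinearGroup (Fin 3) ℂ) : Matrix (Fin 3) (Fin 3) ℂ)
      = ((gA⁻¹ : SpecialLinearGroup (Fin 3) ℂ) : Matrix (Fin 3) (Fin 3) ℂ) * diagonal a :=
    congrArg Subtype.val hA'
  have hB'' : (ρ (FreeGroup.of 1) : Matrix (Fin 3) (Fin 3) ℂ)
      * ((gB⁻¹ : SpecialLinearGroup (Fin 3) ℂ) : Matrix (Fin 3) (Fin 3) ℂ)
      = ((gB⁻¹ : SpecialLinearGroup (Fin 3) ℂ) : Matrix (Fin 3) (Fin 3) ℂ) * diagonal b :=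
    congrArg Subtype.val hB'
  obtain ⟨σ, τ, g, v, hg, h2, h3⟩ := exists_chart _ _ _ _ a b hA'' hB''
    (by rw [(gA⁻¹).2]; exact one_ne_zero) (by rw [(gB⁻¹).2]; exact one_ne_zero)
  have ha' := prod_perm a σ ha
  have hb' := prod_perm b τ hb
  have htr := trace_eq_of_intertwine ρ (rho (a ∘ σ) (b ∘ τ) ha' hb' v) g hg (by
    intro i
    fin_cases i
    · change (ρ (FreeGroup.of 0) : Matrix (Fin 3) (Fin 3) ℂ) * g
        = g * (rho (a ∘ σ) (b ∘ τ) ha' hb' v (FreeGroup.of 0) : Matrix (Fin 3) (Fin 3) ℂ)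
      rw [rho_of_zero]; exact h2
    · change (ρ (FreeGroup.of 1) : Matrix (Fin 3) (Fin 3) ℂ) * g
        = g * (rho (a ∘ σ) (b ∘ τ) ha' hb' v (FreeGroup.of 1) : Matrix (Fin 3) (Fin 3) ℂ)
      rw [rho_of_one]; exact h3)
  obtain ⟨hC1, hC2⟩ := trace_of_isConj hC
  rw [← map_inv, inv_inv] at hC2
  obtain ⟨i0, i1, i2⟩ := inv_eq_of_prod hc
  have ht1 : (∑ i, (c i)⁻¹) ∈ O := by
    rw [Fin.sum_univ_three, i0, i1, i2]
    exact O.add_mem (O.add_mem (O.mul_mem (hcO 1) (hcO 2)) (O.mul_mem (hcO 0) (hcO 2)))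
      (O.mul_mem (hcO 0) (hcO 1))
  have ht2 : (∑ i, c i) ∈ O := O.sum_mem fun i _ => hcO i
  have e := chart_dense O (a ∘ σ) (b ∘ τ) ha' hb' (fun i => haO _) (fun i => hbO _)
    (∑ i, (c i)⁻¹) (∑ i, c i) ht1 ht2 k w F ?_ v ?_ ?_
  · simp only [htr]
    exact e
  · intro v' h1' h2' hint
    apply hF _ _ hint
    refine ⟨?_, ?_, ?_⟩
    · rw [rho_of_zero]; exact isConj_USL a σ ha hai v'
    · rw [rho_of_one]; exact isConj_LSL b τ hb hbi v'
    · apply isConj_of_trace hc hci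
      · rw [trace_rho_prod_inv]; exact h2'
      · rw [← map_inv, inv_inv, trace_rho_prod]; exact h1'
  · rw [← trace_rho_prod (a ∘ σ) (b ∘ τ) ha' hb' v, ← htr]; exact hC2
  · rw [← trace_rho_prod_inv (a ∘ σ) (b ∘ τ) ha' hb' v, ← htr]; exact hC1

end Vale.Agent.P002
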