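import Mathlib

/-!
# A graded order in the 3 x 3 matrices

Given a commutative ring `R`, a subring `S` and edge weights `e i j` such that all
closed paths of length two and three have weight in `S`, the matrices whose `(i,k)` entry lies
in the `S`-span of the weights of the paths from `i` to `k` form a ring, and their traces lie in `S`.
-/

namespace Vale.Agent.P002

open Matrix

section Order

variable {R : Type*} [CommRing R] (S : Subring R) (e : Fin 3 → Fin 3 → R)

/-- The `S`-module spanned by the weights of the two step paths from `i` to `k`. -/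
def Wmod (i k : Fin 3) : Submodule S R :=
  Submodule.span S (Set.range fun j => e i j * e j k)

/-- All closed paths have weight in `S`, and the loops have weight one. -/
structure CycleHyp : Prop where
  diag : ∀ i, e i i = 1
  two : ∀ i j, e i j * e j i ∈ S
  three : ∀ i j k, e i j * e j k * e k i ∈ S

variable {S e}

lemma gen_mem (i j k : Fin 3) : e i j * e j k ∈ Wmod S e i k :=
  Submodule.subset_span ⟨j, rfl⟩

lemma fin3_aux : ∀ i l j k : Fin 3, l ≠ i → j ≠ l → k ≠ j → j ≠ i → k ≠ l → k = i := by
  decide

lemma path3 (h : CycleHyp S e) (i l j k : Fin 3) :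
    e i l * e l j * e j k ∈ Wmod S e i k := by
  by_cases h1 : l = i
  · subst h1
    rw [h.diag, one_mul]
    exact gen_mem _ _ _
  by_cases h2 : j = l
  · subst h2
    rw [h.diag, mul_one]
    exact gen_mem _ _ _
  by_cases h3 : k = j
  · subst h3
    rw [h.diag, mul_one]
    exact gen_mem _ _ _
  by_cases h4 : j = i
  · subst h4
    have : e j l * e l j * e j k = (⟨_, h.two j l⟩ : S) • (e j j * e j k) := by
      rw [h.diag, one_mul]; rfl
    rw [this]
    exact Submodule.smul_mem _ _ (gen_mem _ _ _)
  by_cases h5 : k = l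
  · subst h5
    have : e i k * e k j * e j k = (⟨_, h.two k j⟩ : S) • (e i i * e i k) := by
      rw [h.diag, one_mul]
      change _ = (e k j * e j k) * e i k
      ring
    rw [this]
    exact Submodule.smul_mem _ _ (gen_mem _ _ _)
  have h6 : k = i := fin3_aux i l j k h1 h2 h3 h4 h5
  subst h6
  have : e k l * e l j * e j k = (⟨_, h.three k l j⟩ : S) • (e k k * e k k) := by
    rw [h.diag, one_mul]
    change _ = (e k l * e l j * e j k) * 1
    ring
  rw [this]
  exact Submodule.smul_mem _ _ (gen_mem _ _ _)

lemma mul_edge (h : CycleHyp S e) {i j : Fin 3} (k : Fin 3) {t : R} (ht : t ∈ Wmod S e i j) :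
    t * e j k ∈ Wmod S e i k := by
  induction ht using Submodule.span_induction with
  | mem x hx =>
    obtain ⟨l, rfl⟩ := hx
    exact path3 h i l j k
  | zero => simp
  | add x y _ _ hx hy => rw [add_mul]; exact Submodule.add_mem _ hx hy
  | smul c x _ hx => rw [smul_mul_assoc]; exact Submodule.smul_mem _ _ hx

lemma Wmul (h : CycleHyp S e) {i j k : Fin 3} {t t' : R} (ht : t ∈ Wmod S e i j)
    (ht' : t' ∈ Wmod S e j k) : t * t' ∈ Wmod S e i k := by
  induction ht' using Submodule.span_induction with
  | mem x hx =>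
    obtain ⟨l, rfl⟩ := hx
    rw [← mul_assoc]
    exact mul_edge h k (mul_edge h l ht)
  | zero => simp
  | add x y _ _ hx hy => rw [mul_add]; exact Submodule.add_mem _ hx hy
  | smul c x _ hx => rw [mul_smul_comm]; exact Submodule.smul_mem _ _ hx

lemma Wdiag (h : CycleHyp S e) {i : Fin 3} {t : R} (ht : t ∈ Wmod S e i i) : t ∈ S := by
  induction ht using Submodule.span_induction with
  | mem x hx =>
    obtain ⟨l, rfl⟩ := hx
    exact h.two i l
  | zero => exact S.zero_mem
  | add x y _ _ hx hy => exact S.add_mem hx hy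
  | smul c x _ hx => exact S.mul_mem c.2 hx

lemma edge_mem (h : CycleHyp S e) (i k : Fin 3) : e i k ∈ Wmod S e i k := by
  have := gen_mem (S := S) (e := e) i i k
  rwa [h.diag, one_mul] at this

lemma scalar_mem (h : CycleHyp S e) (i : Fin 3) {c : R} (hc : c ∈ S) : c ∈ Wmod S e i i := by
  have h1 : c = (⟨c, hc⟩ : S) • (e i i * e i i) := by
    rw [h.diag, one_mul]
    change c = c * 1
    ring
  rw [h1]
  exact Submodule.smul_mem _ _ (gen_mem _ _ _)

lemma smul_mem' {i k : Fin 3} {c t : R} (hc : c ∈ S) (ht : t ∈ Wmod S e i k) :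
    c * t ∈ Wmod S e i k :=
  Submodule.smul_mem _ (⟨c, hc⟩ : S) ht

variable (S e) in
/-- The order: matrices whose `(i,k)` entry lies in `Wmod S e i k`. -/
def InOrd (m : Matrix (Fin 3) (Fin 3) R) : Prop := ∀ i k, m i k ∈ Wmod S e i k

lemma InOrd.mul (h : CycleHyp S e) {m m' : Matrix (Fin 3) (Fin 3) R} (hm : InOrd S e m)
    (hm' : InOrd S e m') : InOrd S e (m * m') := by
  intro i k
  rw [Matrix.mul_apply]
  exact Submodule.sum_mem _ fun j _ => Wmul h (hm i j) (hm' j k)

lemma InOrd.one (h : CycleHyp S e) : InOrd S e (1 : Matrix (Fin 3) (Fin 3) R) := by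
  intro i k
  by_cases hik : i = k
  · subst hik
    rw [Matrix.one_apply_eq]
    exact scalar_mem h i S.one_mem
  · rw [Matrix.one_apply_ne hik]
    exact Submodule.zero_mem _

lemma InOrd.trace_mem (h : CycleHyp S e) {m : Matrix (Fin 3) (Fin 3) R} (hm : InOrd S e m) :
    m.trace ∈ S := by
  rw [Matrix.trace]
  exact S.sum_mem fun i _ => Wdiag h (hm i i)

end Order

end Vale.Agent.P002
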