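import Vale.Agent.P002.Rep

/-!
# Trace functions on the chart are polynomials in the five invariants
-/

namespace Vale.Agent.P002

open Matrix

section Functorial

variable {R R' : Type*} [CommRing R] [CommRing R']

lemma map_rho (f : R →+* R') (a b : Fin 3 → R) (ha : a 0 * a 1 * a 2 = 1)
    (hb : b 0 * b 1 * b 2 = 1) (v : Fin 6 → R)
    (ha' : f (a 0) * f (a 1) * f (a 2) = 1) (hb' : f (b 0) * f (b 1) * f (b 2) = 1) :
    (SpecialLinearGroup.map f).comp (rho a b ha hb v)
      = rho (fun i => f (a i)) (fun i => f (b i)) ha' hb' (fun i => f (v i)) := by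
  apply FreeGroup.ext_hom
  intro i
  fin_cases i
  · change SpecialLinearGroup.map f (rho a b ha hb v (FreeGroup.of 0)) =
      rho (fun i => f (a i)) (fun i => f (b i)) ha' hb' (fun i => f (v i)) (FreeGroup.of 0)
    rw [rho_of_zero, rho_of_zero]
    apply Subtype.ext
    have h1 : ((SpecialLinearGroup.map f (USL a ha v) : SpecialLinearGroup (Fin 3) R') :
      Matrix (Fin 3) (Fin 3) R') = f.mapMatrix (Umat a v) := rfl
    have h2 : ((USL (fun i => f (a i)) ha' (fun i => f (v i)) : SpecialLinearGroup (Fin 3) R') :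
      Matrix (Fin 3) (Fin 3) R') = Umat (fun i => f (a i)) (fun i => f (v i)) := rfl
    refine h1.trans (Eq.trans ?_ h2.symm)
    ext i j
    fin_cases i <;> fin_cases j <;> simp [Umat]
  · change SpecialLinearGroup.map f (rho a b ha hb v (FreeGroup.of 1)) =
      rho (fun i => f (a i)) (fun i => f (b i)) ha' hb' (fun i => f (v i)) (FreeGroup.of 1)
    rw [rho_of_one, rho_of_one]
    apply Subtype.ext
    have h1 : ((SpecialLinearGroup.map f (LSL b hb v) : SpecialLinearGroup (Fin 3) R') :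
      Matrix (Fin 3) (Fin 3) R') = f.mapMatrix (Lmat b v) := rfl
    have h2 : ((LSL (fun i => f (b i)) hb' (fun i => f (v i)) : SpecialLinearGroup (Fin 3) R') :
      Matrix (Fin 3) (Fin 3) R') = Lmat (fun i => f (b i)) (fun i => f (v i)) := rfl
    refine h1.trans (Eq.trans ?_ h2.symm)
    ext i j
    fin_cases i <;> fin_cases j <;> simp [Lmat]

lemma trace_map (f : R →+* R') (g : SpecialLinearGroup (Fin 3) R) :
    ((SpecialLinearGroup.map f g : SpecialLinearGroup (Fin 3) R') :
      Matrix (Fin 3) (Fin 3) R').trace = f ((g : Matrix (Fin 3) (Fin 3) R).trace) := by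
  rw [trace_fin_three, trace_fin_three, map_add, map_add]
  rfl

end Functorial

open MvPolynomial in
/-- Every polynomial in finitely many trace functions is, on the triangular chart, a polynomial in
the five torus invariants. -/
theorem poly5 (a b : Fin 3 → ℂ) (ha : a 0 * a 1 * a 2 = 1) (hb : b 0 * b 1 * b 2 = 1)
    (k : ℕ) (w : Fin k → FreeGroup (Fin 2)) (F : MvPolynomial (Fin k) ℂ) :
    ∃ G : MvPolynomial (Fin 5) ℂ, ∀ v : Fin 6 → ℂ,
      eval (fun i => ((rho a b ha hb v (w i) : SpecialLinearGroup (Fin 3) ℂ) :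
        Matrix (Fin 3) (Fin 3) ℂ).trace) F = eval (inv5 v) G := by
  classical
  set A : Fin 3 → MvPolynomial (Fin 6) ℂ := fun i => C (a i) with hA
  set B : Fin 3 → MvPolynomial (Fin 6) ℂ := fun i => C (b i) with hB
  have hA1 : A 0 * A 1 * A 2 = 1 := by
    simp only [hA, ← C_mul, ha, C_1]
  have hB1 : B 0 * B 1 * B 2 = 1 := by
    simp only [hB, ← C_mul, hb, C_1]
  set V : Fin 6 → MvPolynomial (Fin 6) ℂ := fun i => X i with hV
  set Sa : Subalgebra ℂ (MvPolynomial (Fin 6) ℂ) := Algebra.adjoin ℂ (Set.range (inv5 V)) with hSa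
  have htr : ∀ g : FreeGroup (Fin 2),
      ((rho A B hA1 hB1 V g : SpecialLinearGroup (Fin 3) (MvPolynomial (Fin 6) ℂ)) :
        Matrix (Fin 3) (Fin 3) (MvPolynomial (Fin 6) ℂ)).trace ∈ Sa := by
    intro g
    have := trace_rho_mem Sa.toSubring A B hA1 hB1 V
      (fun i => Algebra.subset_adjoin ⟨i, rfl⟩)
      (fun i => Sa.algebraMap_mem (a i)) (fun i => Sa.algebraMap_mem (b i)) g
    exact this
  have hG : aeval (fun i => ((rho A B hA1 hB1 V (w i) :
      SpecialLinearGroup (Fin 3) (MvPolynomial (Fin 6) ℂ)) :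
        Matrix (Fin 3) (Fin 3) (MvPolynomial (Fin 6) ℂ)).trace) F ∈ Sa := by
    have h1 := comp_aeval_apply (R := ℂ) (f := fun i => (⟨_, htr (w i)⟩ : Sa)) Sa.val F
    simp only [Subalgebra.coe_val] at h1
    rw [← h1]
    exact Subtype.property _
  rw [hSa, Algebra.adjoin_range_eq_range_aeval] at hG
  obtain ⟨G, hG⟩ := hG
  refine ⟨G, fun v => ?_⟩
  have e1 : eval v (aeval (inv5 V) G) = eval (inv5 v) G := by
    have h2 := comp_aeval_apply (R := ℂ) (f := inv5 V) (aeval v : MvPolynomial (Fin 6) ℂ →ₐ[ℂ] ℂ) G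
    have h3 : (fun i => (aeval v : MvPolynomial (Fin 6) ℂ →ₐ[ℂ] ℂ) (inv5 V i)) = inv5 v := by
      funext i
      fin_cases i <;> simp [inv5, hV]
    rw [h3] at h2
    simpa [aeval_eq_eval] using h2
  have hG' : (aeval (inv5 V)) G = aeval (fun i => ((rho A B hA1 hB1 V (w i) :
      SpecialLinearGroup (Fin 3) (MvPolynomial (Fin 6) ℂ)) :
        Matrix (Fin 3) (Fin 3) (MvPolynomial (Fin 6) ℂ)).trace) F := hG
  rw [← e1, hG']
  have h4 := comp_aeval_apply (R := ℂ) (f := fun i => ((rho A B hA1 hB1 V (w i) :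
      SpecialLinearGroup (Fin 3) (MvPolynomial (Fin 6) ℂ)) :
        Matrix (Fin 3) (Fin 3) (MvPolynomial (Fin 6) ℂ)).trace)
        (aeval v : MvPolynomial (Fin 6) ℂ →ₐ[ℂ] ℂ) F
  have h5 : ∀ g : FreeGroup (Fin 2), (aeval v : MvPolynomial (Fin 6) ℂ →ₐ[ℂ] ℂ)
      ((rho A B hA1 hB1 V g : SpecialLinearGroup (Fin 3) (MvPolynomial (Fin 6) ℂ)) :
        Matrix (Fin 3) (Fin 3) (MvPolynomial (Fin 6) ℂ)).trace
      = ((rho a b ha hb v g : SpecialLinearGroup (Fin 3) ℂ) : Matrix (Fin 3) (Fin 3) ℂ).trace := by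
    intro g
    have h6 := map_rho (eval v) A B hA1 hB1 V (by simpa [hA] using ha) (by simpa [hB] using hb)
    have h7 := congrArg (fun φ => φ g) h6
    simp only [MonoidHom.comp_apply] at h7
    have h8 := trace_map (eval v) (rho A B hA1 hB1 V g)
    rw [h7] at h8
    have h9 : rho (fun i => eval v (A i)) (fun i => eval v (B i)) (by simpa [hA] using ha)
        (by simpa [hB] using hb) (fun i => eval v (V i)) = rho a b ha hb v := by
      congr 1 <;> funext i <;> simp [hA, hB, hV]
    rw [h9] at h8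
    rw [h8]
    simp [aeval_eq_eval]
  simp only [h5] at h4
  simpa [aeval_eq_eval] using h4.symm

end Vale.Agent.P002
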