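import Vale.Agent.P002.Order

/-!
# The triangular chart

Pairs (upper triangular, lower triangular) of 3 x 3 matrices of determinant one, the
representation of the free group on two generators they define, and the fact that all its traces
lie in any subring containing the diagonal entries and the five torus invariants.
-/

namespace Vale.Agent.P002

open Matrix

section Rep

variable {R : Type*} [CommRing R]

/-- Upper triangular matrix with diagonal `a` and entries `v 0, v 1, v 2`. -/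
def Umat (a : Fin 3 → R) (v : Fin 6 → R) : Matrix (Fin 3) (Fin 3) R :=
  !![a 0, v 0, v 1; 0, a 1, v 2; 0, 0, a 2]

/-- Lower triangular matrix with diagonal `b` and entries `v 3, v 4, v 5`. -/
def Lmat (b : Fin 3 → R) (v : Fin 6 → R) : Matrix (Fin 3) (Fin 3) R :=
  !![b 0, 0, 0; v 3, b 1, 0; v 4, v 5, b 2]

lemma det_Umat (a : Fin 3 → R) (v : Fin 6 → R) : (Umat a v).det = a 0 * a 1 * a 2 := by
  simp [Umat, det_fin_three]

lemma det_Lmat (b : Fin 3 → R) (v : Fin 6 → R) : (Lmat b v).det = b 0 * b 1 * b 2 := by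
  simp [Lmat, det_fin_three]

/-- `Umat` as an element of the special linear group. -/
def USL (a : Fin 3 → R) (ha : a 0 * a 1 * a 2 = 1) (v : Fin 6 → R) :
    SpecialLinearGroup (Fin 3) R := ⟨Umat a v, by rw [det_Umat, ha]⟩

/-- `Lmat` as an element of the special linear group. -/
def LSL (b : Fin 3 → R) (hb : b 0 * b 1 * b 2 = 1) (v : Fin 6 → R) :
    SpecialLinearGroup (Fin 3) R := ⟨Lmat b v, by rw [det_Lmat, hb]⟩

/-- The representation of the free group on two generators given by the chart point `v`. -/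
def rho (a b : Fin 3 → R) (ha : a 0 * a 1 * a 2 = 1) (hb : b 0 * b 1 * b 2 = 1) (v : Fin 6 → R) :
    FreeGroup (Fin 2) →* SpecialLinearGroup (Fin 3) R :=
  FreeGroup.lift ![USL a ha v, LSL b hb v]

/-- The edge weights. -/
def eM (v : Fin 6 → R) : Fin 3 → Fin 3 → R :=
  fun i j => (!![1, v 0, v 1; v 3, 1, v 2; v 4, v 5, 1] : Matrix (Fin 3) (Fin 3) R) i j

/-- The five torus invariants. -/
def inv5 (v : Fin 6 → R) : Fin 5 → R :=
  ![v 0 * v 3, v 2 * v 5, v 1 * v 4, v 0 * v 2 * v 4, v 1 * v 3 * v 5]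

lemma cycleHyp (S : Subring R) (v : Fin 6 → R) (h : ∀ i, inv5 v i ∈ S) : CycleHyp S (eM v) := by
  have h0 : v 0 * v 3 ∈ S := h 0
  have h1 : v 2 * v 5 ∈ S := h 1
  have h2 : v 1 * v 4 ∈ S := h 2
  have h3 : v 0 * v 2 * v 4 ∈ S := h 3
  have h4 : v 1 * v 3 * v 5 ∈ S := h 4
  have h0' : v 3 * v 0 ∈ S := by rw [mul_comm]; exact h0
  have h1' : v 5 * v 2 ∈ S := by rw [mul_comm]; exact h1
  have h2' : v 4 * v 1 ∈ S := by rw [mul_comm]; exact h2
  refine ⟨?_, ?_, ?_⟩
  · intro i; fin_cases i <;> simp [eM]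
  · intro i j
    fin_cases i <;> fin_cases j <;> simp [eM] <;> first | exact S.one_mem | assumption
  · intro i j k
    fin_cases i <;> fin_cases j <;> fin_cases k <;> simp [eM] <;>
      first
        | exact S.one_mem
        | assumption
        | (convert h3 using 1; ring)
        | (convert h4 using 1; ring)

lemma inOrd_U (S : Subring R) (a : Fin 3 → R) (v : Fin 6 → R) (h : ∀ i, inv5 v i ∈ S)
    (ha : ∀ i, a i ∈ S) : InOrd S (eM v) (Umat a v) := by
  have hc := cycleHyp S v h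
  intro i k
  fin_cases i <;> fin_cases k
  · exact scalar_mem hc 0 (ha 0)
  · exact edge_mem hc 0 1
  · exact edge_mem hc 0 2
  · exact Submodule.zero_mem _
  · exact scalar_mem hc 1 (ha 1)
  · exact edge_mem hc 1 2
  · exact Submodule.zero_mem _
  · exact Submodule.zero_mem _
  · exact scalar_mem hc 2 (ha 2)

lemma inOrd_L (S : Subring R) (b : Fin 3 → R) (v : Fin 6 → R) (h : ∀ i, inv5 v i ∈ S)
    (hb : ∀ i, b i ∈ S) : InOrd S (eM v) (Lmat b v) := by
  have hc := cycleHyp S v h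
  intro i k
  fin_cases i <;> fin_cases k
  · exact scalar_mem hc 0 (hb 0)
  · exact Submodule.zero_mem _
  · exact Submodule.zero_mem _
  · exact edge_mem hc 1 0
  · exact scalar_mem hc 1 (hb 1)
  · exact Submodule.zero_mem _
  · exact edge_mem hc 2 0
  · exact edge_mem hc 2 1
  · exact scalar_mem hc 2 (hb 2)

lemma adj_Umat (a : Fin 3 → R) (v : Fin 6 → R) :
    (Umat a v).adjugate = !![a 1 * a 2, -(a 2 * v 0), v 0 * v 2 - a 1 * v 1;
      0, a 0 * a 2, -(a 0 * v 2); 0, 0, a 0 * a 1] := by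
  rw [Umat, adjugate_fin_three_of]
  ext i j
  fin_cases i <;> fin_cases j <;> simp <;> ring

lemma adj_Lmat (b : Fin 3 → R) (v : Fin 6 → R) :
    (Lmat b v).adjugate = !![b 1 * b 2, 0, 0;
      -(b 2 * v 3), b 0 * b 2, 0; v 3 * v 5 - b 1 * v 4, -(b 0 * v 5), b 0 * b 1] := by
  rw [Lmat, adjugate_fin_three_of]
  ext i j
  fin_cases i <;> fin_cases j <;> simp <;> ring

lemma inOrd_Uadj (S : Subring R) (a : Fin 3 → R) (v : Fin 6 → R) (h : ∀ i, inv5 v i ∈ S)
    (ha : ∀ i, a i ∈ S) : InOrd S (eM v) (Umat a v).adjugate := by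
  have hc := cycleHyp S v h
  rw [adj_Umat]
  intro i k
  fin_cases i <;> fin_cases k
  · exact scalar_mem hc 0 (S.mul_mem (ha 1) (ha 2))
  · exact Submodule.neg_mem _ (smul_mem' (ha 2) (edge_mem hc 0 1))
  · exact Submodule.sub_mem _ (gen_mem 0 1 2) (smul_mem' (ha 1) (edge_mem hc 0 2))
  · exact Submodule.zero_mem _
  · exact scalar_mem hc 1 (S.mul_mem (ha 0) (ha 2))
  · exact Submodule.neg_mem _ (smul_mem' (ha 0) (edge_mem hc 1 2))
  · exact Submodule.zero_mem _
  · exact Submodule.zero_mem _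
  · exact scalar_mem hc 2 (S.mul_mem (ha 0) (ha 1))

lemma inOrd_Ladj (S : Subring R) (b : Fin 3 → R) (v : Fin 6 → R) (h : ∀ i, inv5 v i ∈ S)
    (hb : ∀ i, b i ∈ S) : InOrd S (eM v) (Lmat b v).adjugate := by
  have hc := cycleHyp S v h
  rw [adj_Lmat]
  intro i k
  fin_cases i <;> fin_cases k
  · exact scalar_mem hc 0 (S.mul_mem (hb 1) (hb 2))
  · exact Submodule.zero_mem _
  · exact Submodule.zero_mem _
  · exact Submodule.neg_mem _ (smul_mem' (hb 2) (edge_mem hc 1 0))
  · exact scalar_mem hc 1 (S.mul_mem (hb 0) (hb 2))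
  · exact Submodule.zero_mem _
  · refine Submodule.sub_mem _ ?_ (smul_mem' (hb 1) (edge_mem hc 2 0))
    have := gen_mem (S := S) (e := eM v) 2 1 0
    have h2 : eM v 2 1 * eM v 1 0 = v 3 * v 5 := by simp [eM]; ring
    rw [h2] at this
    exact this
  · exact Submodule.neg_mem _ (smul_mem' (hb 0) (edge_mem hc 2 1))
  · exact scalar_mem hc 2 (S.mul_mem (hb 0) (hb 1))

@[simp] lemma coe_USL (a : Fin 3 → R) (ha : a 0 * a 1 * a 2 = 1) (v : Fin 6 → R) :
    ((USL a ha v : SpecialLinearGroup (Fin 3) R) : Matrix (Fin 3) (Fin 3) R) = Umat a v := rfl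

@[simp] lemma coe_LSL (b : Fin 3 → R) (hb : b 0 * b 1 * b 2 = 1) (v : Fin 6 → R) :
    ((LSL b hb v : SpecialLinearGroup (Fin 3) R) : Matrix (Fin 3) (Fin 3) R) = Lmat b v := rfl

@[simp] lemma rho_of_zero (a b : Fin 3 → R) (ha : a 0 * a 1 * a 2 = 1)
    (hb : b 0 * b 1 * b 2 = 1) (v : Fin 6 → R) :
    rho a b ha hb v (FreeGroup.of 0) = USL a ha v := by simp [rho]

@[simp] lemma rho_of_one (a b : Fin 3 → R) (ha : a 0 * a 1 * a 2 = 1)
    (hb : b 0 * b 1 * b 2 = 1) (v : Fin 6 → R) :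
    rho a b ha hb v (FreeGroup.of 1) = LSL b hb v := by simp [rho]

/-- Every word is sent into the order. -/
lemma inOrd_rho (S : Subring R) (a b : Fin 3 → R) (ha1 : a 0 * a 1 * a 2 = 1)
    (hb1 : b 0 * b 1 * b 2 = 1) (v : Fin 6 → R) (h : ∀ i, inv5 v i ∈ S)
    (ha : ∀ i, a i ∈ S) (hb : ∀ i, b i ∈ S) (w : FreeGroup (Fin 2)) :
    InOrd S (eM v) ((rho a b ha1 hb1 v w : SpecialLinearGroup (Fin 3) R) :
      Matrix (Fin 3) (Fin 3) R) := by
  have hc := cycleHyp S v h
  induction w using FreeGroup.induction_on with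
  | C1 => rw [map_one]; exact InOrd.one hc
  | of i =>
    fin_cases i
    · change InOrd S (eM v) ((rho a b ha1 hb1 v (FreeGroup.of 0) : SpecialLinearGroup (Fin 3) R) :
        Matrix (Fin 3) (Fin 3) R)
      rw [rho_of_zero, coe_USL]; exact inOrd_U S a v h ha
    · change InOrd S (eM v) ((rho a b ha1 hb1 v (FreeGroup.of 1) : SpecialLinearGroup (Fin 3) R) :
        Matrix (Fin 3) (Fin 3) R)
      rw [rho_of_one, coe_LSL]; exact inOrd_L S b v h hb
  | inv_of i _ =>
    fin_cases i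
    · change InOrd S (eM v) ((rho a b ha1 hb1 v (FreeGroup.of 0)⁻¹ :
        SpecialLinearGroup (Fin 3) R) : Matrix (Fin 3) (Fin 3) R)
      rw [map_inv, rho_of_zero]
      exact inOrd_Uadj S a v h ha
    · change InOrd S (eM v) ((rho a b ha1 hb1 v (FreeGroup.of 1)⁻¹ :
        SpecialLinearGroup (Fin 3) R) : Matrix (Fin 3) (Fin 3) R)
      rw [map_inv, rho_of_one]
      exact inOrd_Ladj S b v h hb
  | mul x y hx hy =>
    rw [map_mul]
    exact InOrd.mul hc hx hy

/-- All traces lie in the subring. -/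
lemma trace_rho_mem (S : Subring R) (a b : Fin 3 → R) (ha1 : a 0 * a 1 * a 2 = 1)
    (hb1 : b 0 * b 1 * b 2 = 1) (v : Fin 6 → R) (h : ∀ i, inv5 v i ∈ S)
    (ha : ∀ i, a i ∈ S) (hb : ∀ i, b i ∈ S) (w : FreeGroup (Fin 2)) :
    ((rho a b ha1 hb1 v w : SpecialLinearGroup (Fin 3) R) : Matrix (Fin 3) (Fin 3) R).trace ∈ S :=
  InOrd.trace_mem (cycleHyp S v h) (inOrd_rho S a b ha1 hb1 v h ha hb w)

end Rep

end Vale.Agent.P002
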